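import Mathlib.Algebra.Ring.Nat
import Mathlib.Data.Nat.Bitwise
import Mathlib.Tactic.Ring
import Mathlib.Tactic.ByContra

/-!
# A kernel checker for RUP / LRAT refutations (general purpose, about 0.1 ms per hint)

## For the user

A literal is a number: `2 * i` is the variable `i`, `2 * i + 1` its negation (`Lit`).  A clause is a
list of literals.  `chk_sound`: if `chk N w m q d ax codes a k = true` (by `decide +kernel`), then no
valuation `v : ℕ → Prop` satisfies all clauses of `ax`.  The data `N w m q d codes a k` come from the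
converter `rup.py` (cadical, LRAT).  For big refutations use `ld_sound`, `seg_sound`, `end_sound`:
the segments are independent theorems about the same table `d`, to be checked in separate files.

## How it works

All clauses (axioms and learned) are written in the table `d` once and for all, as masks of width
`2 * N` (positive literals first), in blocks.  `get` reads a clause; as `d` never changes, the kernel
caches every read.  The codes are numbers with digits in base `2 ^ w`: `h + 1` is a hint (clause
number `h`), `0` ends the derivation of a clause.  Every hint must be smaller than the number `i` of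
the clause under way.  No step needs more than two case distinctions, everything else is arithmetic
with literals.
-/

set_option autoImplicit false

namespace Vale.Agent.P032.R2.H805.Rup

/-- evaluate the argument first -/
noncomputable def force (x : ℕ) (F : ℕ → Bool) : Bool :=
  @Nat.rec (fun _ => Bool) (F 0) (fun y _ => F (Nat.succ y)) x

theorem force_eq (x : ℕ) (F : ℕ → Bool) : force x F = F x := by cases x <;> rfl

/-- table of clauses: the low bits of a clause number choose the branch, the block `x` contains the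
clauses as fields of equal width -/
inductive Tab
  | leaf (x : ℕ) : Tab
  | node (l r : Tab) : Tab

/-- clause number `h`; `L` is the width, `W = 2 ^ L - 1` -/
noncomputable def get (L W : ℕ) (d : Tab) : ℕ → ℕ :=
  @Tab.rec (fun _ => ℕ → ℕ) (fun x h => Nat.land (Nat.shiftRight x (Nat.mul h L)) W)
    (fun _ _ ihl ihr h => @Nat.rec (fun _ => ℕ) (ihl (Nat.shiftRight h 1))
      (fun _ _ => ihr (Nat.shiftRight h 1)) (Nat.land h 1)) d

/-- `fuel` digits of a code; `g` reads the table, `A` is the mask of false literals, `R` the last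
remainder, `i` the number of the clause under way -/
noncomputable def hl (N w V : ℕ) (g : ℕ → ℕ) (F : ℕ → ℕ → ℕ → Bool) (fuel : ℕ) :
    ℕ → ℕ → ℕ → ℕ → Bool :=
  @Nat.rec (fun _ => ℕ → ℕ → ℕ → ℕ → Bool) (fun _ A R i => F A R i) (fun _ ih code A R i =>
    @Nat.rec (fun _ => Bool)
      (@Nat.rec (fun _ => Bool)
        (force (Nat.succ i) fun j => ih (Nat.shiftRight code w) (g j) 1 j)
        (fun _ _ => ih (Nat.shiftRight code w) A R i) R)
      (fun h _ => (fun rem =>
          @Nat.rec (fun _ => Bool) (ih (Nat.shiftRight code w)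
            (Nat.lor A (Nat.lor (Nat.shiftRight rem N) (Nat.shiftLeft rem N))) rem i)
            (fun _ _ => false)
            (Nat.lor (Nat.sub (Nat.succ h) i) (Nat.land rem (Nat.sub rem 1))))
        (Nat.xor (g h) (Nat.land (g h) A)))
      (Nat.land code V)) fuel

/-- `q` pieces of `m` digits each; `M = m * w`, `C = 2 ^ M - 1` -/
noncomputable def pieces (N w V m M C : ℕ) (g : ℕ → ℕ) (F : ℕ → ℕ → ℕ → Bool) (q : ℕ) :
    ℕ → ℕ → ℕ → ℕ → Bool :=
  @Nat.rec (fun _ => ℕ → ℕ → ℕ → ℕ → Bool) (fun _ A R i => F A R i) (fun _ ih code A R i =>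
    hl N w V g (fun A' R' i' => ih (Nat.shiftRight code M) A' R' i') m (Nat.land code C) A R i) q

/-- a list of codes of `q * m` digits each -/
noncomputable def codesRun (N w V m M C q : ℕ) (g : ℕ → ℕ) (F : ℕ → ℕ → ℕ → Bool)
    (codes : List ℕ) : ℕ → ℕ → ℕ → Bool :=
  @List.rec ℕ (fun _ => ℕ → ℕ → ℕ → Bool) (fun A R i => F A R i) (fun code _ ih A R i =>
    pieces N w V m M C g (fun A' R' i' => ih A' R' i') q code A R i) codes

/-- **a segment**: the clauses `i, …, e - 1` follow from the clauses `0, …, i - 1` -/
noncomputable def seg (N w m q : ℕ) (d : Tab) (codes : List ℕ) (i e : ℕ) : Bool :=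
  force (Nat.mul 2 N) fun L => force (Nat.sub (Nat.shiftLeft 1 L) 1) fun W =>
  force (Nat.sub (Nat.shiftLeft 1 w) 1) fun V => force (Nat.mul m w) fun M =>
  force (Nat.sub (Nat.shiftLeft 1 M) 1) fun C =>
    codesRun N w V m M C q (get L W d) (fun _ _ j => Nat.beq j e) codes (get L W d i) 1 i

/-- the mask of a clause given by its literals; bits from `L = 2 * N` on are errors -/
noncomputable def msk (N L : ℕ) (c : List ℕ) : ℕ :=
  @List.rec ℕ (fun _ => ℕ) 0 (fun j _ ih => Nat.lor (Nat.lor
    (Nat.shiftLeft 1 (Nat.add (Nat.div j 2) (Nat.mul (Nat.mod j 2) N)))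
    (Nat.shiftLeft (Nat.sub (Nat.succ j) L) L)) ih) c

/-- **loading**: the clauses `i, …, e - 1` of the table are the clauses of the list -/
noncomputable def ldRun (N L : ℕ) (g : ℕ → ℕ) (e : ℕ) (ax : List (List ℕ)) : ℕ → Bool :=
  @List.rec (List ℕ) (fun _ => ℕ → Bool) (fun i => Nat.beq i e) (fun c _ ih i =>
    force (msk N L c) fun x => @Bool.rec (fun _ => Bool) false
      (@Nat.rec (fun _ => Bool) (force (Nat.succ i) fun j => ih j) (fun _ _ => false)
        (Nat.shiftRight x L)) (Nat.beq (g i) x)) ax

/-- **loading**: the clauses `i, …, e - 1` of the table are the clauses of the list -/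
noncomputable def ld (N : ℕ) (d : Tab) (ax : List (List ℕ)) (i e : ℕ) : Bool :=
  force (Nat.mul 2 N) fun L => force (Nat.sub (Nat.shiftLeft 1 L) 1) fun W =>
    ldRun N L (get L W d) e ax i

/-- the clause number `i` is empty -/
noncomputable def fin (N : ℕ) (d : Tab) (i : ℕ) : Bool :=
  force (Nat.mul 2 N) fun L => force (Nat.sub (Nat.shiftLeft 1 L) 1) fun W =>
    Nat.beq (get L W d i) 0

/-- **the whole check**: `a` axioms, the clause number `k` is the last one, and empty -/
noncomputable def chk (N w m q : ℕ) (d : Tab) (ax : List (List ℕ)) (codes : List ℕ)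
    (a k : ℕ) : Bool :=
  @Bool.rec (fun _ => Bool) false
    (@Bool.rec (fun _ => Bool) false (fin N d k) (seg N w m q d codes a (Nat.succ k)))
    (ld N d ax 0 a)

/-! ### Soundness -/

/-- truth of a literal -/
def Lit (v : ℕ → Prop) (j : ℕ) : Prop := if j % 2 = 0 then v (j / 2) else ¬ v (j / 2)

/-- truth of a position -/
def Pos (N : ℕ) (v : ℕ → Prop) (p : ℕ) : Prop := (p < N ∧ v p) ∨ (N ≤ p ∧ p < 2 * N ∧ ¬ v (p - N))

/-- truth of a mask -/
def Holds (N : ℕ) (v : ℕ → Prop) (c : ℕ) : Prop := ∃ p, c.testBit p = true ∧ Pos N v p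

/-- all positions of the mask are false -/
def AllFalse (N : ℕ) (v : ℕ → Prop) (A : ℕ) : Prop := ∀ p, A.testBit p = true → ¬ Pos N v p

/-- the value of `get`, in short -/
noncomputable def gt (N : ℕ) (d : Tab) (h : ℕ) : ℕ := get (2 * N) (2 ^ (2 * N) - 1) d h

/-- the clauses below `i` hold -/
def Ok (N : ℕ) (v : ℕ → Prop) (d : Tab) (i : ℕ) : Prop := ∀ h < i, Holds N v (gt N d h)

variable {N : ℕ} {v : ℕ → Prop}

theorem not_holds_zero : ¬ Holds N v 0 := by
  rintro ⟨p, hp, -⟩
  rw [Nat.zero_testBit] at hp
  exact absurd hp (by simp)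

theorem not_holds {A : ℕ} (h : ¬ Holds N v A) : AllFalse N v A := fun p hp hl => h ⟨p, hp, hl⟩

theorem xor_bit (c A j : ℕ) : (Nat.xor c (Nat.land c A)).testBit j =
    (c.testBit j && !A.testBit j) := by
  show (c ^^^ (c &&& A)).testBit j = _
  rw [Nat.testBit_xor, Nat.testBit_and]
  cases c.testBit j <;> cases A.testBit j <;> rfl

theorem allFalse_lor {A B : ℕ} (hA : AllFalse N v A) (hB : AllFalse N v B) :
    AllFalse N v (Nat.lor A B) := by
  intro j hj
  have hj' : (A ||| B).testBit j = true := hj
  rw [Nat.testBit_or, Bool.or_eq_true] at hj'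
  exact hj'.elim (hA j) (hB j)

theorem allFalse_shiftRight {p : ℕ} (h : Pos N v p) :
    AllFalse N v (Nat.shiftRight (2 ^ p) N) := by
  intro j hj hl
  have hj' : ((2 ^ p) >>> N).testBit j = true := hj
  rw [Nat.testBit_shiftRight, Nat.testBit_two_pow, decide_eq_true_eq] at hj'
  subst hj'
  rcases h with ⟨h1, -⟩ | ⟨-, h2, h3⟩
  · omega
  · rcases hl with ⟨-, h4⟩ | ⟨h4, -, -⟩
    · apply h3
      rwa [Nat.add_sub_cancel_left]
    · omega

theorem allFalse_shiftLeft {p : ℕ} (h : Pos N v p) :
    AllFalse N v (Nat.shiftLeft (2 ^ p) N) := by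
  intro j hj hl
  have hj' : ((2 ^ p) <<< N).testBit j = true := hj
  rw [Nat.testBit_shiftLeft, Nat.testBit_two_pow, Bool.and_eq_true, decide_eq_true_eq,
    decide_eq_true_eq] at hj'
  obtain ⟨h5, h6⟩ := hj'
  have h7 : N ≤ j := h5
  rcases hl with ⟨h8, -⟩ | ⟨-, h8, h9⟩
  · omega
  · rcases h with ⟨h1, h2⟩ | ⟨h1, h2, -⟩
    · apply h9
      rwa [← h6]
    · omega

/-- one hint -/
theorem step {c A : ℕ} (hc : Holds N v c) (hA : AllFalse N v A)
    (h2 : Nat.land (Nat.xor c (Nat.land c A)) (Nat.sub (Nat.xor c (Nat.land c A)) 1) = 0) :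
    AllFalse N v (Nat.lor A (Nat.lor (Nat.shiftRight (Nat.xor c (Nat.land c A)) N)
      (Nat.shiftLeft (Nat.xor c (Nat.land c A)) N))) ∧ Nat.xor c (Nat.land c A) ≠ 0 := by
  obtain ⟨p, hp, hl⟩ := hc
  have hpA : A.testBit p = false := by
    by_contra hh
    exact hA p (by simpa using hh) hl
  have hr : (Nat.xor c (Nat.land c A)).testBit p = true := by
    rw [xor_bit, hp, hpA]; rfl
  generalize Nat.xor c (Nat.land c A) = rem at h2 hr ⊢
  have h0 : rem ≠ 0 := by
    rintro rfl
    rw [Nat.zero_testBit] at hr
    exact absurd hr (by simp)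
  obtain ⟨k, rfl⟩ := (Nat.and_sub_one_eq_zero_iff_isPowerOfTwo h0).1 h2
  have ek : k = p := by
    rwa [Nat.testBit_two_pow, decide_eq_true_eq] at hr
  rw [ek]
  rw [ek] at h0
  exact ⟨allFalse_lor hA (allFalse_lor (allFalse_shiftRight hl) (allFalse_shiftLeft hl)), h0⟩

/-- the state of the run -/
def Inv (N : ℕ) (v : ℕ → Prop) (g : ℕ → ℕ) (A R i : ℕ) : Prop :=
  (∀ h < i, Holds N v (g h)) ∧ (¬ Holds N v (g i) → AllFalse N v A ∧ R ≠ 0)

theorem hl_sound {w V : ℕ} {g : ℕ → ℕ} {F : ℕ → ℕ → ℕ → Bool} : ∀ {fuel code A R i : ℕ},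
    Inv N v g A R i → hl N w V g F fuel code A R i = true →
    ∃ A' R' i', Inv N v g A' R' i' ∧ F A' R' i' = true
  | 0, _, A, R, i, inv, h => ⟨A, R, i, inv, h⟩
  | fuel + 1, code, A, R, i, inv, h => by
      have h' : @Nat.rec (fun _ => Bool)
        (@Nat.rec (fun _ => Bool)
          (force (Nat.succ i) fun j => hl N w V g F fuel (Nat.shiftRight code w) (g j) 1 j)
          (fun _ _ => hl N w V g F fuel (Nat.shiftRight code w) A R i) R)
        (fun h _ => (fun rem =>
            @Nat.rec (fun _ => Bool) (hl N w V g F fuel (Nat.shiftRight code w)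
              (Nat.lor A (Nat.lor (Nat.shiftRight rem N) (Nat.shiftLeft rem N))) rem i)
              (fun _ _ => false)
              (Nat.lor (Nat.sub (Nat.succ h) i) (Nat.land rem (Nat.sub rem 1))))
          (Nat.xor (g h) (Nat.land (g h) A)))
        (Nat.land code V) = true := h
      clear h
      obtain ⟨i1, i2⟩ := inv
      cases e : Nat.land code V with
      | zero =>
          rw [e] at h'
          cases R with
          | zero =>
              have h2 : force (Nat.succ i) (fun j =>
                hl N w V g F fuel (Nat.shiftRight code w) (g j) 1 j) = true := h'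
              rw [force_eq] at h2
              refine hl_sound ⟨?_, ?_⟩ h2
              · intro h hh
                rcases Nat.lt_succ_iff_lt_or_eq.1 hh with h3 | rfl
                · exact i1 h h3
                · by_contra h4
                  exact (i2 h4).2 rfl
              · exact fun h3 => ⟨not_holds h3, one_ne_zero⟩
          | succ R =>
              have h2 : hl N w V g F fuel (Nat.shiftRight code w) A (R + 1) i = true := h'
              exact hl_sound ⟨i1, i2⟩ h2
      | succ h =>
          rw [e] at h'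
          have h2 : @Nat.rec (fun _ => Bool) (hl N w V g F fuel (Nat.shiftRight code w)
              (Nat.lor A (Nat.lor (Nat.shiftRight (Nat.xor (g h) (Nat.land (g h) A)) N)
                (Nat.shiftLeft (Nat.xor (g h) (Nat.land (g h) A)) N)))
              (Nat.xor (g h) (Nat.land (g h) A)) i)
              (fun _ _ => false)
              (Nat.lor (Nat.sub (Nat.succ h) i) (Nat.land (Nat.xor (g h) (Nat.land (g h) A))
                (Nat.sub (Nat.xor (g h) (Nat.land (g h) A)) 1))) = true := h'
          cases e2 : Nat.lor (Nat.sub (Nat.succ h) i)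
              (Nat.land (Nat.xor (g h) (Nat.land (g h) A))
                (Nat.sub (Nat.xor (g h) (Nat.land (g h) A)) 1)) with
          | succ y =>
              rw [e2] at h2
              exact absurd h2 (by simp)
          | zero =>
              rw [e2] at h2
              have e3 := Nat.or_eq_zero_iff.1 e2
              have h5 : h < i := by
                have := e3.1
                have h6 : Nat.succ h - i = 0 := this
                omega
              refine hl_sound ⟨i1, ?_⟩ h2
              intro h7
              obtain ⟨hA, -⟩ := i2 h7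
              exact step (i1 h h5) hA e3.2

theorem pieces_sound {w V m M C : ℕ} {g : ℕ → ℕ} {F : ℕ → ℕ → ℕ → Bool} :
    ∀ {q code A R i : ℕ}, Inv N v g A R i → pieces N w V m M C g F q code A R i = true →
    ∃ A' R' i', Inv N v g A' R' i' ∧ F A' R' i' = true
  | 0, _, A, R, i, inv, h => ⟨A, R, i, inv, h⟩
  | q + 1, code, A, R, i, inv, h => by
      have h' : hl N w V g (fun A' R' i' =>
        pieces N w V m M C g F q (Nat.shiftRight code M) A' R' i') m (Nat.land code C) A R i =
          true := h
      obtain ⟨A', R', i', inv', h2⟩ := hl_sound inv h'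
      exact pieces_sound inv' h2

theorem codesRun_sound {w V m M C q : ℕ} {g : ℕ → ℕ} {F : ℕ → ℕ → ℕ → Bool} :
    ∀ {codes : List ℕ} {A R i : ℕ}, Inv N v g A R i →
    codesRun N w V m M C q g F codes A R i = true →
    ∃ A' R' i', Inv N v g A' R' i' ∧ F A' R' i' = true
  | [], A, R, i, inv, h => ⟨A, R, i, inv, h⟩
  | code :: codes, A, R, i, inv, h => by
      have h' : pieces N w V m M C g (fun A' R' i' =>
        codesRun N w V m M C q g F codes A' R' i') q code A R i = true := h
      obtain ⟨A', R', i', inv', h2⟩ := pieces_sound inv h'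
      exact codesRun_sound inv' h2

/-- **A segment is sound.** -/
theorem seg_sound {w m q : ℕ} {d : Tab} {codes : List ℕ} {i e : ℕ}
    (h : seg N w m q d codes i e = true) (ok : Ok N v d i) : Ok N v d e := by
  unfold seg at h
  simp only [force_eq] at h
  have eW : Nat.sub (Nat.shiftLeft 1 (Nat.mul 2 N)) 1 = 2 ^ (2 * N) - 1 := by
    show 1 <<< (2 * N) - 1 = _
    rw [Nat.shiftLeft_eq, one_mul]
  rw [eW] at h
  obtain ⟨A', R', i', inv', h2⟩ := codesRun_sound (N := N) (v := v) (A := get (Nat.mul 2 N)
    (2 ^ (2 * N) - 1) d i) (R := 1) (i := i) ⟨ok, fun h3 => ⟨not_holds h3, one_ne_zero⟩⟩ h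
  have e1 : i' = e := Nat.eq_of_beq_eq_true h2
  rw [← e1]
  exact inv'.1

theorem lor_shiftRight_eq_zero {a b L : ℕ} (h : (Nat.lor a b) >>> L = 0) :
    a >>> L = 0 ∧ b >>> L = 0 := by
  have h' : (a ||| b) >>> L = 0 := h
  rw [Nat.shiftRight_or_distrib] at h'
  exact Nat.or_eq_zero_iff.1 h'

theorem holds_msk : ∀ {c : List ℕ}, (msk N (2 * N) c) >>> (2 * N) = 0 → (∃ j ∈ c, Lit v j) →
    Holds N v (msk N (2 * N) c)
  | [], _, h => by obtain ⟨j, hj, -⟩ := h; simp at hj
  | a :: c, h0, h => by
      have e : msk N (2 * N) (a :: c) = Nat.lor (Nat.lor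
        (Nat.shiftLeft 1 (Nat.add (Nat.div a 2) (Nat.mul (Nat.mod a 2) N)))
        (Nat.shiftLeft (Nat.sub (Nat.succ a) (2 * N)) (2 * N))) (msk N (2 * N) c) := rfl
      rw [e] at h0 ⊢
      obtain ⟨h1, h2⟩ := lor_shiftRight_eq_zero h0
      obtain ⟨-, h3⟩ := lor_shiftRight_eq_zero h1
      have h4 : (a + 1 - 2 * N) <<< (2 * N) >>> (2 * N) = 0 := h3
      rw [Nat.shiftLeft_shiftRight] at h4
      obtain ⟨j, hj, hl⟩ := h
      rcases List.mem_cons.1 hj with rfl | hj
      · refine ⟨j / 2 + j % 2 * N, ?_, ?_⟩
        · show ((1 <<< (j / 2 + j % 2 * N) ||| _) ||| _).testBit (j / 2 + j % 2 * N) = true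
          rw [Nat.testBit_or, Nat.testBit_or, Nat.shiftLeft_eq, one_mul,
            Nat.testBit_two_pow_self, Bool.true_or, Bool.true_or]
        · unfold Lit at hl
          rcases Nat.mod_two_eq_zero_or_one j with h5 | h5
          · rw [h5] at hl ⊢
            rw [if_pos rfl] at hl
            left
            refine ⟨by omega, ?_⟩
            rwa [zero_mul, add_zero]
          · rw [h5] at hl ⊢
            rw [if_neg one_ne_zero] at hl
            right
            refine ⟨by omega, by omega, ?_⟩
            rwa [one_mul, Nat.add_sub_cancel]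
      · obtain ⟨p, hp, hq⟩ := holds_msk (c := c) h2 ⟨j, hj, hl⟩
        refine ⟨p, ?_, hq⟩
        show (_ ||| msk N (2 * N) c).testBit p = true
        rw [Nat.testBit_or, hp, Bool.or_true]

theorem ldRun_sound {g : ℕ → ℕ} {e : ℕ} : ∀ {ax : List (List ℕ)} {i : ℕ},
    ldRun N (2 * N) g e ax i = true → (∀ c ∈ ax, ∃ j ∈ c, Lit v j) →
    (∀ h < i, Holds N v (g h)) → ∀ h < e, Holds N v (g h)
  | [], i, h, _, ok => by
      have e1 : i = e := Nat.eq_of_beq_eq_true h
      rw [← e1]
      exact ok
  | c :: ax, i, h, hax, ok => by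
      have h' : force (msk N (2 * N) c) (fun x => @Bool.rec (fun _ => Bool) false
        (@Nat.rec (fun _ => Bool) (force (Nat.succ i) fun j => ldRun N (2 * N) g e ax j)
          (fun _ _ => false) (Nat.shiftRight x (2 * N))) (Nat.beq (g i) x)) = true := h
      simp only [force_eq] at h'
      cases e1 : Nat.beq (g i) (msk N (2 * N) c) with
      | false => rw [e1] at h'; exact absurd h' (by simp)
      | true =>
          rw [e1] at h'
          have h2 : @Nat.rec (fun _ => Bool) (ldRun N (2 * N) g e ax (Nat.succ i))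
            (fun _ _ => false) (Nat.shiftRight (msk N (2 * N) c) (2 * N)) = true := h'
          cases e2 : Nat.shiftRight (msk N (2 * N) c) (2 * N) with
          | succ y => rw [e2] at h2; exact absurd h2 (by simp)
          | zero =>
              rw [e2] at h2
              have e3 : g i = msk N (2 * N) c := Nat.eq_of_beq_eq_true e1
              refine ldRun_sound (ax := ax) (i := i + 1) h2
                (fun c hc => hax c (List.mem_cons_of_mem _ hc)) ?_
              intro h hh
              rcases Nat.lt_succ_iff_lt_or_eq.1 hh with h3 | rfl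
              · exact ok h h3
              · rw [e3]
                exact holds_msk e2 (hax c (List.mem_cons_self ..))

/-- **Loading is sound.** -/
theorem ld_sound {d : Tab} {ax : List (List ℕ)} {i e : ℕ} (h : ld N d ax i e = true)
    (hax : ∀ c ∈ ax, ∃ j ∈ c, Lit v j) (ok : Ok N v d i) : Ok N v d e := by
  unfold ld at h
  simp only [force_eq] at h
  have eW : Nat.sub (Nat.shiftLeft 1 (Nat.mul 2 N)) 1 = 2 ^ (2 * N) - 1 := by
    show 1 <<< (2 * N) - 1 = _
    rw [Nat.shiftLeft_eq, one_mul]
  rw [eW] at h
  exact ldRun_sound (g := gt N d) h hax ok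

/-- **The end.** -/
theorem end_sound {d : Tab} {i e : ℕ} (h : fin N d i = true) (hi : i < e) (ok : Ok N v d e) :
    False := by
  unfold fin at h
  simp only [force_eq] at h
  have eW : Nat.sub (Nat.shiftLeft 1 (Nat.mul 2 N)) 1 = 2 ^ (2 * N) - 1 := by
    show 1 <<< (2 * N) - 1 = _
    rw [Nat.shiftLeft_eq, one_mul]
  rw [eW] at h
  have h2 := ok i hi
  have h3 : gt N d i = 0 := Nat.eq_of_beq_eq_true h
  rw [h3] at h2
  exact not_holds_zero h2

/-- **The checker is sound**: if `chk` succeeds, then every valuation violates a clause of `ax`. -/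
theorem chk_sound {w m q : ℕ} {d : Tab} {ax : List (List ℕ)} {codes : List ℕ} {a k : ℕ}
    (h : chk N w m q d ax codes a k = true) (v : ℕ → Prop)
    (hax : ∀ c ∈ ax, ∃ j ∈ c, Lit v j) : False := by
  unfold chk at h
  cases e1 : ld N d ax 0 a with
  | false => rw [e1] at h; exact absurd h (by simp)
  | true =>
      rw [e1] at h
      cases e2 : seg N w m q d codes a (Nat.succ k) with
      | false => rw [e2] at h; exact absurd h (by simp)
      | true =>
          rw [e2] at h
          have h3 : fin N d k = true := h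
          exact end_sound h3 (Nat.lt_succ_self k)
            (seg_sound (v := v) e2 (ld_sound e1 hax (fun h hh => absurd hh (by omega))))

end Vale.Agent.P032.R2.H805.Rup
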