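import Vale.Agent.P032.R2.H741.TpC
import Vale.Agent.P032.R2.H805.Rup

/-!
# P032: certificates of invariants

`match_sound`: a refutation (`H805/Rup.lean`) of clauses in local variables (the digits of `W`) refutes
the clauses `cs` in the numbering of `H741/Tp.lean`.  `isSt`: numbers of the state atoms (just before the
instant), `nx`, `nxl`: the number of the successor (just after the instant).  `stp`: check of one clause
of the invariant after the instant, `ini`: start, `fns`: end.
-/

set_option autoImplicit false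

namespace Vale.Agent.P032.R2.H805.Step

open Vale.Agent.P032.R2.H741.Tp
open Vale.Agent.P032.R2.H805.Rup (Lit chk chk_sound force force_eq)

/-! ## Local variables -/

/-- digit number `i` of `W`, in base `4096` -/
def dg (W i : ℕ) : ℕ := Nat.land (Nat.shiftRight W (Nat.mul 12 i)) 4095

/-- the global literal of a local literal -/
def gl (W j : ℕ) : ℕ := Nat.add (Nat.mul 2 (dg W (Nat.div j 2))) (Nat.mod j 2)

theorem lit_gl {v : ℕ → Prop} {W j : ℕ} : Lit (fun i => v (dg W i)) j ↔ Lit v (gl W j) := by
  have e : gl W j = 2 * dg W (j / 2) + j % 2 := rfl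
  unfold Lit
  rw [e]
  by_cases h : j % 2 = 0
  · rw [if_pos h, if_pos (by omega), show (2 * dg W (j / 2) + j % 2) / 2 = dg W (j / 2) by omega]
  · rw [if_neg h, if_neg (by omega), show (2 * dg W (j / 2) + j % 2) / 2 = dg W (j / 2) by omega]

/-- the mask of the global literals of a local clause -/
noncomputable def gm (W : ℕ) (l : List ℕ) : ℕ :=
  @List.rec ℕ (fun _ => ℕ) 0 (fun j _ ih => Nat.lor (Nat.shiftLeft 1 (gl W j)) ih) l

theorem gm_bit {W i : ℕ} : ∀ {l : List ℕ}, (gm W l).testBit i = true → ∃ j ∈ l, gl W j = i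
  | [], h => by
      have h' : Nat.testBit 0 i = true := h
      rw [Nat.zero_testBit] at h'
      exact absurd h' (by simp)
  | j :: l, h => by
      have e : gm W (j :: l) = (1 <<< gl W j) ||| gm W l := rfl
      rw [e, Nat.testBit_or, Bool.or_eq_true] at h
      rcases h with h | h
      · rw [Nat.shiftLeft_eq, one_mul, Nat.testBit_two_pow, decide_eq_true_eq] at h
        exact ⟨j, List.mem_cons_self .., h⟩
      · obtain ⟨j', h1, h2⟩ := gm_bit h
        exact ⟨j', List.mem_cons_of_mem _ h1, h2⟩

/-- all literals of the clause are in the mask -/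
noncomputable def sub (m : ℕ) (c : List ℕ) : Bool :=
  @List.rec ℕ (fun _ => Bool) true (fun j _ ih =>
    @Nat.rec (fun _ => Bool) false (fun _ _ => ih) (Nat.land (Nat.shiftRight m j) 1)) c

theorem sub_sound {m : ℕ} : ∀ {c : List ℕ}, sub m c = true → ∀ j ∈ c, m.testBit j = true
  | [], _, j, hj => by simp at hj
  | i :: c, h, j, hj => by
      have h' : @Nat.rec (fun _ => Bool) false (fun _ _ => sub m c)
        (Nat.land (Nat.shiftRight m i) 1) = true := h
      have hb : m.testBit i = true ∧ sub m c = true := by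
        cases e : Nat.land (Nat.shiftRight m i) 1 with
        | zero => rw [e] at h'; exact absurd h' (by simp)
        | succ y =>
            rw [e] at h'
            refine ⟨?_, h'⟩
            have e' : (m >>> i) &&& 1 = y + 1 := e
            rw [Nat.testBit_eq_decide_div_mod_eq, decide_eq_true_eq]
            rw [Nat.and_one_is_mod, Nat.shiftRight_eq_div_pow] at e'
            have := Nat.mod_lt (m / 2 ^ i) (show 0 < 2 by omega)
            omega
      rcases List.mem_cons.1 hj with rfl | h2
      · exact hb.1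
      · exact sub_sound hb.2 j h2

/-- the clauses `cs` (global) imply the clauses `ls` (local), one by one -/
noncomputable def mtch (W : ℕ) (cs : List (List ℕ)) : List (List ℕ) → Bool :=
  @List.rec (List ℕ) (fun _ => List (List ℕ) → Bool)
    (fun ls => @List.rec (List ℕ) (fun _ => Bool) true (fun _ _ _ => false) ls)
    (fun c _ ih ls => @List.rec (List ℕ) (fun _ => Bool) false (fun l ls' _ =>
      @Bool.rec (fun _ => Bool) false (ih ls') (force (gm W l) fun m => sub m c)) ls) cs

theorem mtch_sound {v : ℕ → Prop} {W : ℕ} : ∀ {cs ls : List (List ℕ)}, mtch W cs ls = true →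
    (∀ c ∈ cs, Hd v c) → ∀ l ∈ ls, ∃ j ∈ l, Lit (fun i => v (dg W i)) j
  | [], [], _, _, l, hl => by simp at hl
  | [], _ :: _, h, _, _, _ => by
      have h' : false = true := h
      exact absurd h' (by simp)
  | _ :: _, [], _, _, l, hl => by simp at hl
  | c :: cs, l0 :: ls, h, hc, l, hl => by
      have h' : @Bool.rec (fun _ => Bool) false (mtch W cs ls)
        (force (gm W l0) fun m => sub m c) = true := h
      cases e : (force (gm W l0) fun m => sub m c) with
      | false => rw [e] at h'; exact absurd h' (by simp)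
      | true =>
          rw [e] at h'
          have h2 : mtch W cs ls = true := h'
          rw [force_eq] at e
          rcases List.mem_cons.1 hl with rfl | h3
          · obtain ⟨j, hj, hv⟩ := hc c (List.mem_cons_self ..)
            obtain ⟨j', h4, h5⟩ := gm_bit (sub_sound e j hj)
            exact ⟨j', h4, lit_gl.2 (by rw [h5]; exact hv)⟩
          · exact mtch_sound h2 (fun c hc' => hc c (List.mem_cons_of_mem _ hc')) l h3

/-- **Refutation of the clauses `cs`.** -/
theorem match_sound {N w m q : ℕ} {d : Rup.Tab} {ls : List (List ℕ)} {codes : List ℕ} {a k W : ℕ}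
    {cs : List (List ℕ)} (h : mtch W cs ls = true) (h2 : chk N w m q d ls codes a k = true)
    (v : ℕ → Prop) (hc : ∀ c ∈ cs, Hd v c) : False :=
  chk_sound h2 (fun i => v (dg W i)) (mtch_sound h hc)

/-! ## State atoms -/

/-- `y` is the number of a state atom of a ring -/
def isSt (y : ℕ) : Bool :=
  decide (y < 24) || (decide (192 ≤ y ∧ y < 300) && decide (y % 3 = 0)) ||
    decide (300 ≤ y ∧ y < 336) || decide (372 ≤ y ∧ y < 376) || decide (380 ≤ y ∧ y < 452) ||
    decide (536 ≤ y ∧ y < 544) || decide (y = 552) || decide (554 ≤ y ∧ y < 660) ||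
    decide (672 ≤ y ∧ y < 684)

/-- the number of the successor of a state atom of a ring -/
def nxt (y : ℕ) : ℕ :=
  if y < 24 then y + 24 else if y < 300 then y + 2 else if y < 336 then y + 36
  else if y < 376 then y + 4 else if y < 440 then y else if y < 452 then y + 12
  else if y < 544 then y + 8 else if y < 553 then y + 1 else if y < 648 then y
  else if y < 660 then y + 12 else y

/-- the successor of a state atom -/
def nx (c : ℕ) : ℕ := 704 * (c / 704) + nxt (c % 704)

/-- the successor of a state literal -/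
def nxl (j : ℕ) : ℕ := 2 * nx (j / 2) + j % 2

/-- the literals are state atoms of the first `R` rings -/
def stc (R : ℕ) (B : List (List ℕ)) : Bool :=
  B.all fun c => c.all fun j => Nat.blt (j / 2) (704 * R) && isSt (j / 2 % 704)

theorem stc_sound {R : ℕ} {B : List (List ℕ)} (h : stc R B = true) : ∀ c ∈ B, ∀ j ∈ c,
    j / 2 < 704 * R ∧ isSt (j / 2 % 704) = true := by
  intro c hc j hj
  unfold stc at h
  rw [List.all_eq_true] at h
  have := h c hc
  rw [List.all_eq_true] at this
  have := this j hj
  rw [Bool.and_eq_true, Nat.blt_eq] at this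
  exact this

/-! ## Certificates -/

/-- element number `n`, with a default value -/
noncomputable def el {α : Type} (d : α) (l : List α) : ℕ → α :=
  @List.rec α (fun _ => ℕ → α) (fun _ => d)
    (fun a _ ih n => @Nat.rec (fun _ => α) a (fun m _ => ih m) n) l

theorem el_mem {α : Type} {d : α} : ∀ {l : List α} {n : ℕ}, el d l n = d ∨ el d l n ∈ l
  | [], _ => Or.inl rfl
  | _ :: _, 0 => Or.inr (List.mem_cons_self ..)
  | _ :: l, n + 1 => by
      rcases el_mem (d := d) (l := l) (n := n) with h | h
      · exact Or.inl h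
      · exact Or.inr (List.mem_cons_of_mem _ h)

/-- the clauses hold; they are given in blocks -/
def Hds (v : ℕ → Prop) (B : List (List (List ℕ))) : Prop := ∀ b ∈ B, ∀ c ∈ b, Hd v c

/-- clause number `p % 64` of the block number `p / 64` -/
noncomputable def lk (B : List (List (List ℕ))) (p : ℕ) : List ℕ :=
  el [0, 1] (el [] B (Nat.div p 64)) (Nat.mod p 64)

theorem hd_triv {v : ℕ → Prop} : Hd v [0, 1] := by
  by_cases h : v 0
  · exact ⟨0, by simp, by unfold Lit; rw [if_pos (by omega)]; exact h⟩
  · exact ⟨1, by simp, by unfold Lit; rw [if_neg (by omega)]; exact h⟩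

theorem hd_lk {v : ℕ → Prop} {B : List (List (List ℕ))} (h : Hds v B) (p : ℕ) :
    Hd v (lk B p) := by
  unfold lk
  rcases el_mem (d := ([] : List (List ℕ))) (l := B) (n := Nat.div p 64) with h1 | h1
  · rw [h1]; exact hd_triv
  · rcases el_mem (d := [0, 1]) (l := el [] B (Nat.div p 64)) (n := Nat.mod p 64) with h2 | h2
    · rw [h2]; exact hd_triv
    · exact h _ h1 _ h2

/-- the negated literal -/
def flp (j : ℕ) : ℕ := 2 * (j / 2) + (1 - j % 2)

theorem lit_flp {v : ℕ → Prop} {j : ℕ} : Lit v (flp j) ↔ ¬ Lit v j := by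
  unfold Lit flp
  rw [show (2 * (j / 2) + (1 - j % 2)) / 2 = j / 2 by omega]
  by_cases h : j % 2 = 0
  · rw [if_neg (show ¬ (2 * (j / 2) + (1 - j % 2)) % 2 = 0 by omega), if_pos h]
  · rw [if_pos (show (2 * (j / 2) + (1 - j % 2)) % 2 = 0 by omega), if_neg h, not_not]

/-- the literals after the instant are false -/
def no (c : List ℕ) : List (List ℕ) := c.map fun j => [flp (nxl j)]

/-- the facts about the state and the step -/
structure Ax (G : RD) (S : Sem) : Prop where
  s : ∀ f : CS, f.ok G = true → Hd (val S) (f.cl G)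
  l : ∀ f : CL, f.ok G = true → Hd (val S) (f.cl G)

/-- the clauses of a certificate: facts, invariant, negated clause -/
noncomputable def cls (G : RD) (B : List (List (List ℕ))) (fs : List CS) (ft : List CL)
    (ix : List ℕ) (c : List ℕ) : List (List ℕ) :=
  fs.map (CS.cl G) ++ (ft.map (CL.cl G) ++ (ix.map (lk B) ++ no c))

/-- **check of one clause of the invariant after the instant** -/
noncomputable def stp (G : RD) (B : List (List (List ℕ))) (fs : List CS) (ft : List CL)
    (ix : List ℕ) (c : List ℕ) (W : ℕ) (ls : List (List ℕ)) (N w m q : ℕ) (d : Rup.Tab)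
    (codes : List ℕ) (a k : ℕ) : Bool :=
  (fs.all (CS.ok G) && ft.all (CL.ok G)) &&
    (mtch W (cls G B fs ft ix c) ls && chk N w m q d ls codes a k)

theorem stp_sound {G : RD} {B : List (List (List ℕ))} {fs : List CS} {ft : List CL}
    {ix c : List ℕ} {W : ℕ} {ls : List (List ℕ)} {N w m q : ℕ} {d : Rup.Tab} {codes : List ℕ}
    {a k : ℕ} {S : Sem} (A : Ax G S) (H : Hds (val S) B)
    (h : stp G B fs ft ix c W ls N w m q d codes a k = true) : Hd (val S) (c.map nxl) := by
  unfold stp at h
  rw [Bool.and_eq_true, Bool.and_eq_true, Bool.and_eq_true, List.all_eq_true,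
    List.all_eq_true] at h
  obtain ⟨⟨h2, h3⟩, h4, h5⟩ := h
  by_contra hn
  refine match_sound h4 h5 (val S) ?_
  intro b hb
  unfold cls at hb
  rw [List.mem_append, List.mem_append, List.mem_append, List.mem_map, List.mem_map,
    List.mem_map] at hb
  rcases hb with ⟨f, hf, rfl⟩ | ⟨f, hf, rfl⟩ | ⟨p, _, rfl⟩ | hb
  · exact A.s f (h2 f hf)
  · exact A.l f (h3 f hf)
  · exact hd_lk H p
  · unfold no at hb
    rw [List.mem_map] at hb
    obtain ⟨j, hj, rfl⟩ := hb
    exact ⟨flp (nxl j), List.mem_cons_self .., lit_flp.2 fun hl =>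
      hn ⟨nxl j, List.mem_map.2 ⟨j, hj, rfl⟩, hl⟩⟩

/-- **check of the end** -/
noncomputable def fns (G : RD) (B : List (List (List ℕ))) (fs : List CS) (ft : List CB)
    (ix : List ℕ) (W : ℕ) (ls : List (List ℕ)) (N w m q : ℕ) (d : Rup.Tab) (codes : List ℕ)
    (a k : ℕ) : Bool :=
  (fs.all (CS.ok G) && ft.all (CB.ok G)) &&
    (mtch W (fs.map (CS.cl G) ++ (ft.map (CB.cl G) ++ ix.map (lk B))) ls &&
      chk N w m q d ls codes a k)

theorem fns_sound {G : RD} {B : List (List (List ℕ))} {fs : List CS} {ft : List CB}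
    {ix : List ℕ} {W : ℕ} {ls : List (List ℕ)} {N w m q : ℕ} {d : Rup.Tab} {codes : List ℕ}
    {a k : ℕ} {S : Sem} (A : ∀ f : CS, f.ok G = true → Hd (val S) (f.cl G))
    (A' : ∀ f : CB, f.ok G = true → Hd (val S) (f.cl G))
    (h : fns G B fs ft ix W ls N w m q d codes a k = true) : ¬ Hds (val S) B := by
  intro H
  unfold fns at h
  rw [Bool.and_eq_true, Bool.and_eq_true, Bool.and_eq_true, List.all_eq_true,
    List.all_eq_true] at h
  obtain ⟨⟨h2, h3⟩, h4, h5⟩ := h
  refine match_sound h4 h5 (val S) ?_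
  intro b hb
  rw [List.mem_append, List.mem_append, List.mem_map, List.mem_map, List.mem_map] at hb
  rcases hb with ⟨f, hf, rfl⟩ | ⟨f, hf, rfl⟩ | ⟨p, _, rfl⟩
  · exact A f (h2 f hf)
  · exact A' f (h3 f hf)
  · exact hd_lk H p

/-- the clause contains one of the clauses about the start, or one of the clauses `E` -/
def ini1 (G : RD) (F : List CI) (E : List (List ℕ)) (c : List ℕ) : Bool :=
  (F.any fun f => (f.cl G).all fun j => c.any (Nat.beq j)) ||
    (E.any fun e => e.all fun j => c.any (Nat.beq j))

/-- **check of the start** -/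
def ini (G : RD) (F : List CI) (E : List (List ℕ)) (B : List (List (List ℕ))) : Bool :=
  F.all (CI.ok G) && B.all fun b => b.all (ini1 G F E)

theorem hd_sub {v : ℕ → Prop} {e c : List ℕ} (h : (e.all fun j => c.any (Nat.beq j)) = true)
    (he : Hd v e) : Hd v c := by
  rw [List.all_eq_true] at h
  obtain ⟨j, hj, hl⟩ := he
  have := h j hj
  rw [List.any_eq_true] at this
  obtain ⟨j', h3, h4⟩ := this
  exact ⟨j', h3, by rw [← Nat.eq_of_beq_eq_true h4]; exact hl⟩

theorem ini_sound {G : RD} {F : List CI} {E : List (List ℕ)} {B : List (List (List ℕ))} {S : Sem}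
    (A : ∀ f : CI, f.ok G = true → Hd (val S) (f.cl G)) (hE : ∀ e ∈ E, Hd (val S) e)
    (h : ini G F E B = true) : Hds (val S) B := by
  unfold ini at h
  rw [Bool.and_eq_true, List.all_eq_true, List.all_eq_true] at h
  intro b hb c hc
  have := h.2 b hb
  rw [List.all_eq_true] at this
  have := this c hc
  unfold ini1 at this
  rw [Bool.or_eq_true, List.any_eq_true, List.any_eq_true] at this
  rcases this with ⟨f, hf, h2⟩ | ⟨e, he, h2⟩
  · exact hd_sub h2 (A f (h.1 f hf))
  · exact hd_sub h2 (hE e he)

/-- **check of a consequence of the facts about the start** -/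
noncomputable def sts (G : RD) (fs : List CS) (ft : List CI) (c : List ℕ) (W : ℕ)
    (ls : List (List ℕ)) (N w m q : ℕ) (d : Rup.Tab) (codes : List ℕ) (a k : ℕ) : Bool :=
  (fs.all (CS.ok G) && ft.all (CI.ok G)) &&
    (mtch W (fs.map (CS.cl G) ++ (ft.map (CI.cl G) ++ c.map fun j => [flp j])) ls &&
      chk N w m q d ls codes a k)

theorem sts_sound {G : RD} {fs : List CS} {ft : List CI}
    {c : List ℕ} {W : ℕ} {ls : List (List ℕ)} {N w m q : ℕ} {d : Rup.Tab} {codes : List ℕ}
    {a k : ℕ} {S : Sem} (A : ∀ f : CS, f.ok G = true → Hd (val S) (f.cl G))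
    (A' : ∀ f : CI, f.ok G = true → Hd (val S) (f.cl G))
    (h : sts G fs ft c W ls N w m q d codes a k = true) : Hd (val S) c := by
  unfold sts at h
  rw [Bool.and_eq_true, Bool.and_eq_true, Bool.and_eq_true, List.all_eq_true,
    List.all_eq_true] at h
  obtain ⟨⟨h2, h3⟩, h4, h5⟩ := h
  by_contra hn
  refine match_sound h4 h5 (val S) ?_
  intro b hb
  rw [List.mem_append, List.mem_append, List.mem_map, List.mem_map, List.mem_map] at hb
  rcases hb with ⟨f, hf, rfl⟩ | ⟨f, hf, rfl⟩ | ⟨j, hj, rfl⟩
  · exact A f (h2 f hf)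
  · exact A' f (h3 f hf)
  · exact ⟨flp j, List.mem_cons_self .., lit_flp.2 fun hl => hn ⟨j, hj, hl⟩⟩

/-! ## Putting the clauses together -/

theorem nxl_cons {v : ℕ → Prop} {c : List ℕ} {l : List (List ℕ)} (h : Hd v (c.map nxl))
    (h2 : ∀ c ∈ l, Hd v (c.map nxl)) : ∀ c' ∈ c :: l, Hd v (c'.map nxl) :=
  List.forall_mem_cons.2 ⟨h, h2⟩

theorem nxl_nil {v : ℕ → Prop} : ∀ c ∈ ([] : List (List ℕ)), Hd v (c.map nxl) := by simp

/-- the clauses hold after the instant -/
def Hns (v : ℕ → Prop) (B : List (List (List ℕ))) : Prop := ∀ b ∈ B, ∀ c ∈ b, Hd v (c.map nxl)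

theorem hns_cons {v : ℕ → Prop} {b : List (List ℕ)} {l : List (List (List ℕ))}
    (h : ∀ c ∈ b, Hd v (c.map nxl)) (h2 : Hns v l) : Hns v (b :: l) :=
  List.forall_mem_cons.2 ⟨h, h2⟩

theorem hns_nil {v : ℕ → Prop} : Hns v [] := by
  intro b hb
  simp at hb

theorem hds_flat {v : ℕ → Prop} {B : List (List (List ℕ))} :
    Hds v B ↔ ∀ c ∈ B.flatten, Hd v c := by
  unfold Hds
  constructor
  · intro h c hc
    rw [List.mem_flatten] at hc
    obtain ⟨b, hb, hc⟩ := hc
    exact h b hb c hc
  · intro h b hb c hc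
    exact h c (List.mem_flatten.2 ⟨b, hb, hc⟩)

theorem hns_flat {v : ℕ → Prop} {B : List (List (List ℕ))} :
    Hns v B ↔ ∀ c ∈ B.flatten, Hd v (c.map nxl) := by
  unfold Hns
  constructor
  · intro h c hc
    rw [List.mem_flatten] at hc
    obtain ⟨b, hb, hc⟩ := hc
    exact h b hb c hc
  · intro h b hb c hc
    exact h c (List.mem_flatten.2 ⟨b, hb, hc⟩)

end Vale.Agent.P032.R2.H805.Step
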