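import Vale.Agent.P032.R2.H805.Step

/-!
# P032: a block of clauses of an invariant with one table

`blk_ax`: the facts and the invariant are loaded (`ldb`), `Rup.seg_sound`: the learned clauses,
`blk_rd`: the clauses of the block after the instant are read from the table.
-/

set_option autoImplicit false

namespace Vale.Agent.P032.R2.H805.Step

open Vale.Agent.P032.R2.H741.Tp
open Vale.Agent.P032.R2.H805.Rup

/-- the valuation of the local variables -/
def lv (v : ℕ → Prop) (W : ℕ) : ℕ → Prop := fun i => v (dg W i)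

/-- **loading**: facts and clauses of the invariant as the first `a` clauses of the table -/
noncomputable def ldb (G : RD) (B : List (List (List ℕ))) (fs : List CS) (ft : List CL)
    (ix : List ℕ) (W : ℕ) (ls : List (List ℕ)) (N : ℕ) (d : Tab) (a e : ℕ) : Bool :=
  (fs.all (CS.ok G) && ft.all (CL.ok G)) &&
    (mtch W (fs.map (CS.cl G) ++ (ft.map (CL.cl G) ++ ix.map (lk B))) ls && ld N d ls a e)

theorem ldb_sound {G : RD} {B : List (List (List ℕ))} {fs : List CS} {ft : List CL}
    {ix : List ℕ} {W : ℕ} {ls : List (List ℕ)} {N : ℕ} {d : Tab} {a e : ℕ} {S : Sem}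
    (A : Ax G S) (H : Hds (val S) B) (h : ldb G B fs ft ix W ls N d a e = true)
    (ok : Ok N (lv (val S) W) d a) : Ok N (lv (val S) W) d e := by
  unfold ldb at h
  rw [Bool.and_eq_true, Bool.and_eq_true, Bool.and_eq_true, List.all_eq_true,
    List.all_eq_true] at h
  obtain ⟨⟨h2, h3⟩, h4, h5⟩ := h
  refine ld_sound h5 (mtch_sound h4 ?_) ok
  intro b hb
  rw [List.mem_append, List.mem_append, List.mem_map, List.mem_map, List.mem_map] at hb
  rcases hb with ⟨f, hf, rfl⟩ | ⟨f, hf, rfl⟩ | ⟨p, _, rfl⟩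
  · exact A.s f (h2 f hf)
  · exact A.l f (h3 f hf)
  · exact hd_lk H p

theorem ok_zero {N : ℕ} {v : ℕ → Prop} {d : Tab} : Ok N v d 0 := fun h hh => absurd hh (by omega)

theorem msk_bit {N L p : ℕ} : ∀ {c : List ℕ}, (msk N L c).testBit p = true → p < L →
    ∃ j ∈ c, j / 2 + j % 2 * N = p
  | [], h, _ => by
      have h' : Nat.testBit 0 p = true := h
      rw [Nat.zero_testBit] at h'
      exact absurd h' (by simp)
  | a :: c, h, hp => by
      have e : msk N L (a :: c) = ((1 <<< (a / 2 + a % 2 * N)) |||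
        ((a + 1 - L) <<< L)) ||| msk N L c := rfl
      rw [e, Nat.testBit_or, Nat.testBit_or, Bool.or_eq_true, Bool.or_eq_true] at h
      rcases h with (h | h) | h
      · rw [Nat.shiftLeft_eq, one_mul, Nat.testBit_two_pow, decide_eq_true_eq] at h
        exact ⟨a, List.mem_cons_self .., h⟩
      · rw [Nat.testBit_shiftLeft] at h
        simp only [Bool.and_eq_true, decide_eq_true_eq] at h
        omega
      · obtain ⟨j, h1, h2⟩ := msk_bit h hp
        exact ⟨j, List.mem_cons_of_mem _ h1, h2⟩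

theorem msk_lt {N L : ℕ} : ∀ {c : List ℕ}, (msk N L c) >>> L = 0 → ∀ j ∈ c, j < L
  | [], _, j, hj => by simp at hj
  | a :: c, h, j, hj => by
      have e : msk N L (a :: c) = Nat.lor (Nat.lor (Nat.shiftLeft 1 (Nat.add (Nat.div a 2)
        (Nat.mul (Nat.mod a 2) N))) (Nat.shiftLeft (Nat.sub (Nat.succ a) L) L)) (msk N L c) := rfl
      rw [e] at h
      obtain ⟨h1, h2⟩ := lor_shiftRight_eq_zero h
      obtain ⟨-, h3⟩ := lor_shiftRight_eq_zero h1
      have h4 : (a + 1 - L) <<< L >>> L = 0 := h3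
      rw [Nat.shiftLeft_shiftRight] at h4
      rcases List.mem_cons.1 hj with rfl | hj
      · omega
      · exact msk_lt h2 j hj

theorem msk_holds {N : ℕ} {v : ℕ → Prop} {c : List ℕ} (h0 : (msk N (2 * N) c) >>> (2 * N) = 0)
    (h : Holds N v (msk N (2 * N) c)) : ∃ j ∈ c, Lit v j := by
  obtain ⟨p, hp, hq⟩ := h
  have hp2 : p < 2 * N := by
    rcases hq with ⟨h1, -⟩ | ⟨-, h1, -⟩ <;> omega
  obtain ⟨j, hj, e⟩ := msk_bit hp hp2
  have hl := msk_lt h0 j hj
  refine ⟨j, hj, ?_⟩
  unfold Lit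
  rcases Nat.mod_two_eq_zero_or_one j with h5 | h5
  · rw [if_pos h5]
    rw [h5] at e
    rcases hq with ⟨h1, h2⟩ | ⟨h1, h2, h3⟩
    · rw [show j / 2 = p by omega]; exact h2
    · omega
  · rw [if_neg (by omega)]
    rw [h5] at e
    rcases hq with ⟨h1, h2⟩ | ⟨h1, h2, h3⟩
    · omega
    · rw [show j / 2 = p - N by omega]; exact h3

/-- **reading**: the clause number `p < e` of the table is `lc`, and its literals are in `c` -/
noncomputable def rd1 (W N L M : ℕ) (d : Tab) (e p : ℕ) (lc c : List ℕ) : Bool :=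
  Nat.blt p e && (force (msk N L lc) fun x => (Nat.beq (get L M d p) x &&
    Nat.beq (Nat.shiftRight x L) 0)) && lc.all fun j => c.any (Nat.beq (gl W j))

theorem rd1_sound {v : ℕ → Prop} {W N : ℕ} {d : Tab} {e p : ℕ} {lc c : List ℕ}
    (ok : Ok N (lv v W) d e) (h : rd1 W N (2 * N) (2 ^ (2 * N) - 1) d e p lc c = true) :
    Hd v c := by
  unfold rd1 at h
  rw [Bool.and_eq_true, Bool.and_eq_true, Nat.blt_eq, force_eq, Bool.and_eq_true,
    List.all_eq_true] at h
  obtain ⟨⟨h1, h2, h3⟩, h4⟩ := h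
  have e2 : gt N d p = msk N (2 * N) lc := Nat.eq_of_beq_eq_true h2
  have e3 : msk N (2 * N) lc >>> (2 * N) = 0 := Nat.eq_of_beq_eq_true h3
  have h5 := ok p h1
  rw [e2] at h5
  obtain ⟨j, hj, hl⟩ := msk_holds e3 h5
  have h6 := h4 j hj
  rw [List.any_eq_true] at h6
  obtain ⟨j', h7, h8⟩ := h6
  exact ⟨j', h7, by rw [← Nat.eq_of_beq_eq_true h8]; exact lit_gl.1 hl⟩

/-- reading of a block after the instant: numbers and local clauses -/
noncomputable def rds (W N L M : ℕ) (d : Tab) (e : ℕ) (b : List (List ℕ)) :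
    List (ℕ × List ℕ) → Bool :=
  @List.rec (List ℕ) (fun _ => List (ℕ × List ℕ) → Bool) (fun _ => true)
    (fun c _ ih l => @List.rec (ℕ × List ℕ) (fun _ => Bool) false (fun x l' _ =>
      @Bool.rec (fun _ => Bool) false (ih l') (rd1 W N L M d e x.1 x.2 (c.map nxl))) l) b

theorem rds_sound {v : ℕ → Prop} {W N : ℕ} {d : Tab} {e : ℕ} (ok : Ok N (lv v W) d e) :
    ∀ {b : List (List ℕ)} {l : List (ℕ × List ℕ)},
      rds W N (2 * N) (2 ^ (2 * N) - 1) d e b l = true → ∀ c ∈ b, Hd v (c.map nxl)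
  | [], _, _, c, hc => by simp at hc
  | _ :: _, [], h, _, _ => by
      have h' : false = true := h
      exact absurd h' (by simp)
  | c0 :: b, x :: l, h, c, hc => by
      have h' : @Bool.rec (fun _ => Bool) false (rds W N (2 * N) (2 ^ (2 * N) - 1) d e b l)
        (rd1 W N (2 * N) (2 ^ (2 * N) - 1) d e x.1 x.2 (c0.map nxl)) = true := h
      cases e1 : rd1 W N (2 * N) (2 ^ (2 * N) - 1) d e x.1 x.2 (c0.map nxl) with
      | false => rw [e1] at h'; exact absurd h' (by simp)
      | true =>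
          rw [e1] at h'
          rcases List.mem_cons.1 hc with rfl | h3
          · exact rd1_sound ok e1
          · exact rds_sound ok (l := l) h' c h3

/-- **reading of a block** -/
noncomputable def rdb (W N : ℕ) (d : Tab) (e : ℕ) (b : List (List ℕ)) (l : List (ℕ × List ℕ)) :
    Bool :=
  force (Nat.mul 2 N) fun L => force (Nat.sub (Nat.shiftLeft 1 L) 1) fun M => rds W N L M d e b l

theorem rdb_sound {v : ℕ → Prop} {W N : ℕ} {d : Tab} {e : ℕ} {b : List (List ℕ)}
    {l : List (ℕ × List ℕ)} (ok : Ok N (lv v W) d e) (h : rdb W N d e b l = true) :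
    ∀ c ∈ b, Hd v (c.map nxl) := by
  unfold rdb at h
  rw [force_eq, force_eq] at h
  have eW : Nat.sub (Nat.shiftLeft 1 (Nat.mul 2 N)) 1 = 2 ^ (2 * N) - 1 := by
    show 1 <<< (2 * N) - 1 = _
    rw [Nat.shiftLeft_eq, one_mul]
  rw [eW] at h
  exact rds_sound ok h

end Vale.Agent.P032.R2.H805.Step
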