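import Vale.Agent.P032.R2.H805.Blk

/-!
# P032: start words

`stu`: a clause of the invariant from the facts about the start and extra clauses; `cvr`: one of the
start words occurs.
-/

set_option autoImplicit false

namespace Vale.Agent.P032.R2.H805.Step

open Vale.Agent.P032.R2.H741.Tp
open Vale.Agent.P032.R2.H805.Rup

/-- **check of a consequence of the facts about the start and of the clauses `X`** -/
noncomputable def stu (G : RD) (X : List (List ℕ)) (fs : List CS) (ft : List CI) (c : List ℕ)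
    (W : ℕ) (ls : List (List ℕ)) (N w m q : ℕ) (d : Tab) (codes : List ℕ) (a k : ℕ) : Bool :=
  (fs.all (CS.ok G) && ft.all (CI.ok G)) &&
    (mtch W (fs.map (CS.cl G) ++ (ft.map (CI.cl G) ++ (X ++ c.map fun j => [flp j]))) ls &&
      chk N w m q d ls codes a k)

theorem stu_sound {G : RD} {X : List (List ℕ)} {fs : List CS} {ft : List CI}
    {c : List ℕ} {W : ℕ} {ls : List (List ℕ)} {N w m q : ℕ} {d : Tab} {codes : List ℕ}
    {a k : ℕ} {S : Sem} (A : ∀ f : CS, f.ok G = true → Hd (val S) (f.cl G))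
    (A' : ∀ f : CI, f.ok G = true → Hd (val S) (f.cl G)) (hX : ∀ c ∈ X, Hd (val S) c)
    (h : stu G X fs ft c W ls N w m q d codes a k = true) : Hd (val S) c := by
  unfold stu at h
  rw [Bool.and_eq_true, Bool.and_eq_true, Bool.and_eq_true, List.all_eq_true,
    List.all_eq_true] at h
  obtain ⟨⟨h2, h3⟩, h4, h5⟩ := h
  by_contra hn
  refine match_sound h4 h5 (val S) ?_
  intro b hb
  rw [List.mem_append, List.mem_append, List.mem_append, List.mem_map, List.mem_map,
    List.mem_map] at hb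
  rcases hb with ⟨f, hf, rfl⟩ | ⟨f, hf, rfl⟩ | hb | ⟨j, hj, rfl⟩
  · exact A f (h2 f hf)
  · exact A' f (h3 f hf)
  · exact hX b hb
  · exact ⟨flp j, List.mem_cons_self .., lit_flp.2 fun hl => hn ⟨j, hj, hl⟩⟩

/-- **check: one of the words occurs** -/
noncomputable def cvr (G : RD) (X Us : List (List ℕ)) (fs : List CS) (ft : List CL)
    (fi : List CI) (W : ℕ) (ls : List (List ℕ)) (N w m q : ℕ) (d : Tab) (codes : List ℕ)
    (a k : ℕ) : Bool :=
  (fs.all (CS.ok G) && (ft.all (CL.ok G) && fi.all (CI.ok G))) &&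
    (mtch W (fs.map (CS.cl G) ++ (ft.map (CL.cl G) ++ (fi.map (CI.cl G) ++
      (X ++ Us.map fun u => u.map flp)))) ls && chk N w m q d ls codes a k)

theorem cvr_sound {G : RD} {X Us : List (List ℕ)} {fs : List CS} {ft : List CL} {fi : List CI}
    {W : ℕ} {ls : List (List ℕ)} {N w m q : ℕ} {d : Tab} {codes : List ℕ}
    {a k : ℕ} {S : Sem} (A : Ax G S)
    (A' : ∀ f : CI, f.ok G = true → Hd (val S) (f.cl G)) (hX : ∀ c ∈ X, Hd (val S) c)
    (h : cvr G X Us fs ft fi W ls N w m q d codes a k = true) :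
    ∃ u ∈ Us, ∀ j ∈ u, Hd (val S) [j] := by
  unfold cvr at h
  rw [Bool.and_eq_true, Bool.and_eq_true, Bool.and_eq_true, Bool.and_eq_true, List.all_eq_true,
    List.all_eq_true, List.all_eq_true] at h
  obtain ⟨⟨h2, h3, h3'⟩, h4, h5⟩ := h
  by_contra hn
  refine match_sound h4 h5 (val S) ?_
  intro b hb
  rw [List.mem_append, List.mem_append, List.mem_append, List.mem_append, List.mem_map,
    List.mem_map, List.mem_map, List.mem_map] at hb
  rcases hb with ⟨f, hf, rfl⟩ | ⟨f, hf, rfl⟩ | ⟨f, hf, rfl⟩ | hb | ⟨u, hu, rfl⟩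
  · exact A.s f (h2 f hf)
  · exact A.l f (h3 f hf)
  · exact A' f (h3' f hf)
  · exact hX b hb
  · by_contra hc
    refine hn ⟨u, hu, fun j hj => ?_⟩
    by_contra hj2
    refine hc ⟨flp j, List.mem_map.2 ⟨j, hj, rfl⟩, lit_flp.2 fun hl => hj2 ⟨j, by simp, hl⟩⟩

end Vale.Agent.P032.R2.H805.Step
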